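import Vale.Agent.P207.Q.H717.RPIneq
import Vale.Agent.P207.Q.H413.JetInv

/-!
# P207: relative pinching, the assembly

`K(x) < 2 K(y) + 2 ν²` for unit vectors, `U(x) < 2 U(y)`, `ν² ≤ K`, `ν ≤ U`: the key identity
with `l = (3 t + 5 ν) / 10 - (9/5) q (t - ν) / t²`, `q = (U₀₀ - U₁₁)² + 4 U₀₁²`.
-/

open MeasureTheory Filter Topology

noncomputable section

namespace Vale.Agent.P207.Q.H717

open Vale.Agent.P207.Q.H892 (Curv)
open Vale.Agent.P207.Q.H183 (jet_smul)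
open Vale.Agent.P207.Q.H413

/-- the eigenvectors of a symmetric matrix of size 2 -/
theorem exists_eig (a b c : ℝ) : ∃ x y : ℝ, x ^ 2 + y ^ 2 = 1 ∧
    a * x ^ 2 + 2 * b * (x * y) + c * y ^ 2 =
      (a + c) / 2 + Real.sqrt (((a - c) / 2) ^ 2 + b ^ 2) ∧
    a * y ^ 2 + 2 * b * (y * -x) + c * (-x) ^ 2 =
      (a + c) / 2 - Real.sqrt (((a - c) / 2) ^ 2 + b ^ 2) := by
  set z : ℂ := ⟨(a - c) / 2, b⟩ with hz
  set r := Real.sqrt (((a - c) / 2) ^ 2 + b ^ 2) with hr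
  have hn : ‖z‖ = r := by
    rw [Complex.norm_eq_sqrt_sq_add_sq]
  have h1 : r * Real.cos (Complex.arg z) = (a - c) / 2 := by
    rw [← hn, Complex.norm_mul_cos_arg]
  have h2 : r * Real.sin (Complex.arg z) = b := by
    rw [← hn, Complex.norm_mul_sin_arg]
  set φ := Complex.arg z / 2 with hφ
  have hφ2 : Complex.arg z = 2 * φ := by rw [hφ]; ring
  rw [hφ2] at h1 h2
  have h3 := Real.sin_sq_add_cos_sq φ
  have h4 := Real.sin_sq_add_cos_sq (2 * φ)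
  have h5 := Real.cos_two_mul φ
  have h6 := Real.sin_two_mul φ
  have e : a * Real.cos φ ^ 2 + 2 * b * (Real.cos φ * Real.sin φ) + c * Real.sin φ ^ 2 =
      (a + c) / 2 + r := by
    have e1 : Real.sin φ ^ 2 = 1 - Real.cos φ ^ 2 := by linarith
    have e2 : Real.cos φ ^ 2 = (1 + Real.cos (2 * φ)) / 2 := by linarith
    have e3 : Real.cos φ * Real.sin φ = Real.sin (2 * φ) / 2 := by linarith
    rw [e3, e1, e2]
    have e4 : r = (a - c) / 2 * Real.cos (2 * φ) + b * Real.sin (2 * φ) := by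
      calc r = r * (Real.sin (2 * φ) ^ 2 + Real.cos (2 * φ) ^ 2) := by rw [h4, mul_one]
        _ = (r * Real.cos (2 * φ)) * Real.cos (2 * φ) +
            (r * Real.sin (2 * φ)) * Real.sin (2 * φ) := by ring
        _ = _ := by rw [h1, h2]
    rw [e4]
    ring
  refine ⟨Real.cos φ, Real.sin φ, by linarith, e, ?_⟩
  have e1 : Real.sin φ ^ 2 = 1 - Real.cos φ ^ 2 := by linarith
  rw [e1] at e ⊢
  linarith

variable {P : Type*} [TopologicalSpace P] [CompactSpace P] [MeasurableSpace P] [BorelSpace P]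
  {m : Measure P} [IsFiniteMeasure m] {c : Cal (intL m)} {J : C(P, ℝ) →L[ℝ] ℝ}

/-- **The multiplier for relative pinching.** -/
theorem exists_multiplier {C : Curv c} (D : UData c C) {ν : ℝ} (hν : 0 < ν)
    (hlo : ∀ x a b, ν * (a ^ 2 + b ^ 2) ≤ D.U 0 0 x * a ^ 2 + 2 * D.U 0 1 x * (a * b) +
      D.U 1 1 x * b ^ 2)
    (hup : ∀ x a b a' b', a ^ 2 + b ^ 2 = 1 → a' ^ 2 + b' ^ 2 = 1 →
      D.U 0 0 x * a ^ 2 + 2 * D.U 0 1 x * (a * b) + D.U 1 1 x * b ^ 2 <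
      2 * (D.U 0 0 x * a' ^ 2 + 2 * D.U 0 1 x * (a' * b') + D.U 1 1 x * b' ^ 2))
    (klo : ∀ x a b, ν ^ 2 * (a ^ 2 + b ^ 2) ≤ C.K 0 0 x * a ^ 2 + 2 * C.K 0 1 x * (a * b) +
      C.K 1 1 x * b ^ 2)
    (kup : ∀ x a b a' b', a ^ 2 + b ^ 2 = 1 → a' ^ 2 + b' ^ 2 = 1 →
      C.K 0 0 x * a ^ 2 + 2 * C.K 0 1 x * (a * b) + C.K 1 1 x * b ^ 2 <
      2 * (C.K 0 0 x * a' ^ 2 + 2 * C.K 0 1 x * (a' * b') + C.K 1 1 x * b' ^ 2) + 2 * ν ^ 2) :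
    ∃ (l : C(P, ℝ)) (dl : Idx → C(P, ℝ)), Jet c l dl ∧ ∀ x, 0 < dl .X x +
      l x * (D.U 0 0 x + D.U 1 1 x) - 3 / 2 * l x ^ 2
      - 6 * (((D.U 0 0 x - D.U 1 1 x) / 2) ^ 2 + (D.U 0 1 x) ^ 2) := by
  have ht : ∀ x, 0 < (D.U 0 0 + D.U 1 1) x := fun x => by
    have h1 := hlo x 1 0
    have h2 := hlo x 0 1
    rw [ContinuousMap.add_apply]
    nlinarith
  obtain ⟨g, hg, jg⟩ := exists_jet_inv ((D.jU 0 0).add (D.jU 1 1)) ht
  have jp := (D.jU 0 0).sub (D.jU 1 1)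
  have jq := (jp.mul jp).add (jet_smul ((D.jU 0 1).mul (D.jU 0 1)) (4 : ℝ))
  have jl := ((jet_smul ((D.jU 0 0).add (D.jU 1 1)) (3 / 10 : ℝ)).add
    (jet_smul (Jet.one c) (1 / 2 * ν))).sub
      (jet_smul (jq.mul (jg.sub (jet_smul (jg.mul jg) ν))) (9 / 5 : ℝ))
  refine ⟨_, _, jl, fun x => ?_⟩
  have r00 := D.ric 0 0
  have r01 := D.ric 0 1
  have r11 := D.ric 1 1
  simp only [Fin.sum_univ_two, D.symU] at r00 r01 r11
  set BU : ℝ := ((D.U 0 0 x - D.U 1 1 x) / 2) ^ 2 + (D.U 0 1 x) ^ 2 with hBU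
  set BK : ℝ := ((C.K 0 0 x - C.K 1 1 x) / 2) ^ 2 + (C.K 0 1 x) ^ 2 with hBK
  have hBU0 : 0 ≤ BU := by positivity
  have hBK0 : 0 ≤ BK := by positivity
  set d : ℝ := 2 * Real.sqrt BU with hd
  set δ : ℝ := 2 * Real.sqrt BK with hδ
  have hd0 : 0 ≤ d := by positivity
  have hδ0 : 0 ≤ δ := by positivity
  have hd2 : d ^ 2 = (D.U 0 0 x - D.U 1 1 x) ^ 2 + 4 * D.U 0 1 x ^ 2 := by
    rw [hd, mul_pow, Real.sq_sqrt hBU0, hBU]; ring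
  obtain ⟨a, b, hab, h1, h2⟩ := exists_eig (D.U 0 0 x) (D.U 0 1 x) (D.U 1 1 x)
  obtain ⟨a', b', hab', h3, h4⟩ := exists_eig (C.K 0 0 x) (C.K 0 1 x) (C.K 1 1 x)
  have hba : b ^ 2 + (-a) ^ 2 = 1 := by linarith [neg_sq a]
  have hba' : b' ^ 2 + (-a') ^ 2 = 1 := by linarith [neg_sq a']
  have u1 := hlo x b (-a)
  have u2 := hup x a b b (-a) hab hba
  have k1 := klo x b' (-a')
  have k2 := kup x a' b' b' (-a') hab' hba'
  rw [h2, hba, mul_one] at u1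
  rw [h1, h2] at u2
  rw [h4, hba', mul_one] at k1
  rw [h3, h4] at k2
  have hm : 2 * (D.U 0 0 x - D.U 1 1 x) * (C.K 0 0 x - C.K 1 1 x) +
      8 * (D.U 0 1 x * C.K 0 1 x) ≤ 2 * d * δ := by
    have h5 : (D.U 0 0 x - D.U 1 1 x) / 2 * ((C.K 0 0 x - C.K 1 1 x) / 2) +
        D.U 0 1 x * C.K 0 1 x ≤ Real.sqrt BU * Real.sqrt BK := by
      rw [← Real.sqrt_mul hBU0]
      refine (le_abs_self _).trans (Real.abs_le_sqrt ?_)
      rw [hBU, hBK]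
      nlinarith [sq_nonneg ((D.U 0 0 x - D.U 1 1 x) / 2 * C.K 0 1 x -
        D.U 0 1 x * ((C.K 0 0 x - C.K 1 1 x) / 2))]
    have h6 : 2 * d * δ = 8 * (Real.sqrt BU * Real.sqrt BK) := by rw [hd, hδ]; ring
    rw [h6]
    linarith
  have key := rp_ineq (ν := ν) (t := D.U 0 0 x + D.U 1 1 x) (d := d)
    (k := C.K 0 0 x + C.K 1 1 x) (δ := δ) hν hd0 (by linarith) (by linarith) hδ0
    (by linarith) (by linarith) hm
  rw [hd2] at key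
  have hgx := hg x
  refine lt_of_lt_of_eq key ?_
  simp only [ContinuousMap.smul_apply, ContinuousMap.add_apply, ContinuousMap.sub_apply,
    ContinuousMap.mul_apply, ContinuousMap.neg_apply, ContinuousMap.pow_apply, smul_eq_mul,
    ContinuousMap.one_apply, ContinuousMap.zero_apply, smul_zero,
    r00, r01, r11, hgx, hBU]
  ring

/-- **Assembly for relative pinching.** -/
theorem const_of_rp [m.IsOpenPosMeasure] {C : Curv c} (D : UData c C)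
    {h : ℝ} (Q : PsiData D J h)
    (wpx : ∀ F F' : C(P, ℝ), WX c F F' → intL m (F * F') = 0)
    {ν : ℝ} (hν : 0 < ν)
    (hlo : ∀ x a b, ν * (a ^ 2 + b ^ 2) ≤ D.U 0 0 x * a ^ 2 + 2 * D.U 0 1 x * (a * b) +
      D.U 1 1 x * b ^ 2)
    (hup : ∀ x a b a' b', a ^ 2 + b ^ 2 = 1 → a' ^ 2 + b' ^ 2 = 1 →
      D.U 0 0 x * a ^ 2 + 2 * D.U 0 1 x * (a * b) + D.U 1 1 x * b ^ 2 <
      2 * (D.U 0 0 x * a' ^ 2 + 2 * D.U 0 1 x * (a' * b') + D.U 1 1 x * b' ^ 2))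
    (klo : ∀ x a b, ν ^ 2 * (a ^ 2 + b ^ 2) ≤ C.K 0 0 x * a ^ 2 + 2 * C.K 0 1 x * (a * b) +
      C.K 1 1 x * b ^ 2)
    (kup : ∀ x a b a' b', a ^ 2 + b ^ 2 = 1 → a' ^ 2 + b' ^ 2 = 1 →
      C.K 0 0 x * a ^ 2 + 2 * C.K 0 1 x * (a * b) + C.K 1 1 x * b ^ 2 <
      2 * (C.K 0 0 x * a' ^ 2 + 2 * C.K 0 1 x * (a' * b') + C.K 1 1 x * b' ^ 2) + 2 * ν ^ 2) :
    (∀ x, (C.E22 : C(P, ℝ)) x = (h / 2) ^ 2) ∧ (∀ x, (C.E11 : C(P, ℝ)) x = (h / 2) ^ 2) ∧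
      (∀ x, (C.E12 : C(P, ℝ)) x = 0) ∧
      (∀ x i j, D.U i j x = if i = j then h / 2 else 0) := by
  obtain ⟨l, dl, jl, hc⟩ := exists_multiplier D hν hlo hup klo kup
  exact const_of_data_var D Q wpx hν hlo jl hc

end Vale.Agent.P207.Q.H717
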