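import Vale.Agent.P207.Q.H791.UDataW
import Vale.Agent.P207.Q.H717.RPConst

/-!
# P207: relative pinching, the maximum principle `u₁ < 2 u₂`
-/

open scoped Topology
open Set Filter

set_option linter.unusedSectionVars false

noncomputable section

namespace Vale.Agent.P207.Q.H717

open Vale.Agent.P207.Q.H791 (bb bb_nonneg quad_upper quad_lower sqrt_le_of_lower
  sqrt_le_of_upper RicC ee aa ee_apply aa_apply)

variable {P : Type} [TopologicalSpace P] [CompactSpace P] {φ : ℝ → P → P}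
  {u v w k1 k2 k3 : C(P, ℝ)} {ν : ℝ}

/-- the derivative of the quadratic form along the flow -/
theorem form_deriv (h : RicC φ u v w k1 k2 k3) (p : P) (r x y : ℝ) :
    HasDerivAt (fun r => u (φ r p) * x ^ 2 + 2 * v (φ r p) * (x * y) + w (φ r p) * y ^ 2)
      ((k1 (φ r p) * x ^ 2 + 2 * k2 (φ r p) * (x * y) + k3 (φ r p) * y ^ 2) -
        ((u (φ r p) + w (φ r p)) *
          (u (φ r p) * x ^ 2 + 2 * v (φ r p) * (x * y) + w (φ r p) * y ^ 2) -
          (u (φ r p) * w (φ r p) - v (φ r p) ^ 2) * (x ^ 2 + y ^ 2))) r := by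
  refine ((((h.du p r).mul_const (x ^ 2)).fun_add
    (((h.dv p r).const_mul 2).mul_const (x * y))).fun_add
      ((h.dw p r).mul_const (y ^ 2))).congr_deriv ?_
  ring

/-- the algebra at the maximum -/
theorem no_max {ν a e K1 K2 : ℝ} (hν : 0 < ν) (ha : ν ≤ a) (he : 2 * a ≤ e)
    (h2 : ν ^ 2 ≤ K2) (h1 : K1 < 2 * K2 + 2 * ν ^ 2)
    (hz : (K1 - e ^ 2) * a = e * (K2 - a ^ 2)) : False := by
  have ha0 : 0 < a := hν.trans_le ha
  have e1 : a * K1 < a * (2 * K2 + 2 * ν ^ 2) := mul_lt_mul_of_pos_left h1 ha0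
  have e2 : (e - 2 * a) * ν ^ 2 ≤ (e - 2 * a) * K2 :=
    mul_le_mul_of_nonneg_left h2 (by linarith)
  have e3 : 0 ≤ (e - 2 * a) * ν ^ 2 := mul_nonneg (by linarith) (by positivity)
  have e4 : a * (2 * a ^ 2) ≤ a * (e * (e - a)) := by
    refine mul_le_mul_of_nonneg_left ?_ ha0.le
    nlinarith
  have e5 : a * (2 * ν ^ 2) ≤ a * (2 * a ^ 2) := by
    refine mul_le_mul_of_nonneg_left ?_ ha0.le
    nlinarith
  nlinarith

/-- **The maximum principle.** -/
theorem ee_lt_aa (h : RicC φ u v w k1 k2 k3) (hφ : ∀ p, φ 0 p = p) (hν : 0 < ν)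
    (hlo : ∀ p (x y : ℝ), ν * (x ^ 2 + y ^ 2) ≤ u p * x ^ 2 + 2 * v p * (x * y) + w p * y ^ 2)
    (klo : ∀ p (x y : ℝ), ν ^ 2 * (x ^ 2 + y ^ 2) ≤
      k1 p * x ^ 2 + 2 * k2 p * (x * y) + k3 p * y ^ 2)
    (kup : ∀ p (x y x' y' : ℝ), x ^ 2 + y ^ 2 = 1 → x' ^ 2 + y' ^ 2 = 1 →
      k1 p * x ^ 2 + 2 * k2 p * (x * y) + k3 p * y ^ 2 <
      2 * (k1 p * x' ^ 2 + 2 * k2 p * (x' * y') + k3 p * y' ^ 2) + 2 * ν ^ 2) (p : P) :
    ee u v w p < 2 * aa u v w p := by
  have ha : ∀ p, ν ≤ aa u v w p := fun p => by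
    have := sqrt_le_of_lower (hlo p)
    rw [aa_apply]; linarith
  have ha0 : ∀ p, 0 < aa u v w p := fun p => hν.trans_le (ha p)
  have hcont : Continuous fun p => ee u v w p / aa u v w p :=
    (ee u v w).continuous.div (aa u v w).continuous fun p => (ha0 p).ne'
  obtain ⟨q, -, hq⟩ := isCompact_univ.exists_isMaxOn ⟨p, mem_univ p⟩ hcont.continuousOn
  have hmax : ∀ p, ee u v w p / aa u v w p ≤ ee u v w q / aa u v w q := fun p => hq (mem_univ p)
  suffices hs : ee u v w q < 2 * aa u v w q by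
    have h1 : ee u v w q / aa u v w q < 2 := by rwa [div_lt_iff₀ (ha0 q)]
    have h2 := (hmax p).trans_lt h1
    rwa [div_lt_iff₀ (ha0 p)] at h2
  by_contra hcon
  push Not at hcon
  obtain ⟨x, y, hxy, h1, h2⟩ := exists_eig (u q) (v q) (w q)
  have hyx : y ^ 2 + (-x) ^ 2 = 1 := by linarith [neg_sq x]
  have e1 : u q * x ^ 2 + 2 * v q * (x * y) + w q * y ^ 2 = ee u v w q := by
    rw [h1, ee_apply, bb]
  have e2 : u q * y ^ 2 + 2 * v q * (y * -x) + w q * (-x) ^ 2 = aa u v w q := by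
    rw [h2, aa_apply, bb]
  -- positivity of the denominator
  have hden : ∀ p, 0 < u p * y ^ 2 + 2 * v p * (y * -x) + w p * (-x) ^ 2 := fun p => by
    have := hlo p y (-x)
    rw [hyx, mul_one] at this
    linarith
  have hd := (form_deriv h q 0 x y).fun_div (form_deriv h q 0 y (-x)) (hden _).ne'
  have hloc : IsLocalMax (fun r => (u (φ r q) * x ^ 2 + 2 * v (φ r q) * (x * y) +
      w (φ r q) * y ^ 2) / (u (φ r q) * y ^ 2 + 2 * v (φ r q) * (y * -x) +
      w (φ r q) * (-x) ^ 2)) 0 := by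
    refine Filter.Eventually.of_forall fun r => ?_
    simp only [hφ]
    rw [e1, e2]
    refine le_trans ?_ (hmax (φ r q))
    have g1 := quad_upper (u (φ r q)) (v (φ r q)) (w (φ r q)) x y
    have g2 := quad_lower (u (φ r q)) (v (φ r q)) (w (φ r q)) y (-x)
    rw [hxy, mul_one] at g1
    rw [hyx, mul_one] at g2
    rw [← ee_apply] at g1
    rw [← aa_apply] at g2
    have g3 : 0 ≤ ee u v w (φ r q) := by
      have := hlo (φ r q) x y
      rw [hxy, mul_one] at this
      linarith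
    exact div_le_div₀ g3 g1 (ha0 _) g2
  have hz := hloc.hasDerivAt_eq_zero hd
  simp only [hφ] at hz
  rw [div_eq_zero_iff] at hz
  have hz' := hz.resolve_right (pow_pos (hden q) 2).ne'
  rw [e1, e2, hxy, hyx] at hz'
  have k1' := klo q y (-x)
  rw [hyx, mul_one] at k1'
  have k2' := kup q x y y (-x) hxy hyx
  have hs2 := Real.sq_sqrt (bb_nonneg (u q) (v q) (w q))
  refine no_max hν (ha q) hcon k1' k2' ?_
  have f1 : u q + w q = ee u v w q + aa u v w q := by rw [ee_apply, aa_apply]; ring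
  have f2 : u q * w q - v q ^ 2 = ee u v w q * aa u v w q := by
    rw [ee_apply, aa_apply]
    have : ((u q + w q) / 2 + Real.sqrt (bb (u q) (v q) (w q))) *
        ((u q + w q) / 2 - Real.sqrt (bb (u q) (v q) (w q))) =
        ((u q + w q) / 2) ^ 2 - Real.sqrt (bb (u q) (v q) (w q)) ^ 2 := by ring
    rw [this, hs2, bb]
    ring
  rw [f1, f2] at hz'
  linear_combination hz'

end Vale.Agent.P207.Q.H717
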