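import Vale.Agent.P207.Q.H791.UDataW
import Vale.Agent.P207.Q.H717.MaxRP

/-!
# P207: the maximum principle for `K(x) < a K(y) + (4 - a) ν²`

The unstable solution satisfies `U(x) < a U(y) - (a - 2) ν` for unit vectors `x`, `y`.
-/

open scoped Topology
open Set Filter

set_option linter.unusedSectionVars false

noncomputable section

namespace Vale.Agent.P207.Q.H717

open Vale.Agent.P207.Q.H791 (bb bb_nonneg quad_upper quad_lower sqrt_le_of_lower
  sqrt_le_of_upper RicC ee aa ee_apply aa_apply)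

variable {P : Type} [TopologicalSpace P] [CompactSpace P] {φ : ℝ → P → P}
  {u v w k1 k2 k3 : C(P, ℝ)} {ν a : ℝ}

/-- the algebra at the maximum -/
theorem no_maxA {ν a s e K1 K2 : ℝ} (ha2 : 2 ≤ a) (hν : 0 < ν) (hs : ν ≤ s)
    (he : a * s - (a - 2) * ν ≤ e) (h1 : K1 < a * K2 + (4 - a) * ν ^ 2)
    (hz : K1 - e ^ 2 = a * (K2 - s ^ 2)) : False := by
  have h2 : e ^ 2 - a * s ^ 2 < (4 - a) * ν ^ 2 := by linarith
  have h0 : 0 ≤ a * s - (a - 2) * ν := by nlinarith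
  have h3 : (a * s - (a - 2) * ν) ^ 2 ≤ e ^ 2 := pow_le_pow_left₀ h0 he 2
  have h4 : (4 - a) * ν ^ 2 ≤ (a * s - (a - 2) * ν) ^ 2 - a * s ^ 2 := by
    obtain ⟨z, hz0, rfl⟩ : ∃ z, 0 ≤ z ∧ s = ν + z := ⟨s - ν, by linarith, by ring⟩
    have e1 : (a * (ν + z) - (a - 2) * ν) ^ 2 - a * (ν + z) ^ 2 - (4 - a) * ν ^ 2 =
        2 * a * ν * z + a * (a - 1) * z ^ 2 := by ring
    have : 0 ≤ 2 * a * ν * z + a * (a - 1) * z ^ 2 := by
      have : 0 ≤ a - 1 := by linarith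
      positivity
    linarith
  linarith

/-- **The maximum principle.** -/
theorem ee_lt_A (h : RicC φ u v w k1 k2 k3) (hφ : ∀ p, φ 0 p = p) (hν : 0 < ν) (ha2 : 2 ≤ a)
    (hlo : ∀ p (x y : ℝ), ν * (x ^ 2 + y ^ 2) ≤ u p * x ^ 2 + 2 * v p * (x * y) + w p * y ^ 2)
    (kup : ∀ p (x y x' y' : ℝ), x ^ 2 + y ^ 2 = 1 → x' ^ 2 + y' ^ 2 = 1 →
      k1 p * x ^ 2 + 2 * k2 p * (x * y) + k3 p * y ^ 2 <
      a * (k1 p * x' ^ 2 + 2 * k2 p * (x' * y') + k3 p * y' ^ 2) + (4 - a) * ν ^ 2) (p : P) :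
    ee u v w p < a * aa u v w p - (a - 2) * ν := by
  have ha : ∀ p, ν ≤ aa u v w p := fun p => by
    have := sqrt_le_of_lower (hlo p)
    rw [aa_apply]; linarith
  have hcont : Continuous fun p => ee u v w p - a * aa u v w p :=
    (ee u v w).continuous.sub ((aa u v w).continuous.const_mul a)
  obtain ⟨q, -, hq⟩ := isCompact_univ.exists_isMaxOn ⟨p, mem_univ p⟩ hcont.continuousOn
  have hmax : ∀ p, ee u v w p - a * aa u v w p ≤ ee u v w q - a * aa u v w q :=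
    fun p => hq (mem_univ p)
  suffices hs : ee u v w q < a * aa u v w q - (a - 2) * ν by
    have := hmax p
    linarith
  by_contra hcon
  push Not at hcon
  obtain ⟨x, y, hxy, h1, h2⟩ := exists_eig (u q) (v q) (w q)
  have hyx : y ^ 2 + (-x) ^ 2 = 1 := by linarith [neg_sq x]
  have e1 : u q * x ^ 2 + 2 * v q * (x * y) + w q * y ^ 2 = ee u v w q := by
    rw [h1, ee_apply, bb]
  have e2 : u q * y ^ 2 + 2 * v q * (y * -x) + w q * (-x) ^ 2 = aa u v w q := by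
    rw [h2, aa_apply, bb]
  have hd := (form_deriv h q 0 x y).fun_sub ((form_deriv h q 0 y (-x)).const_mul a)
  have hloc : IsLocalMax (fun r => (u (φ r q) * x ^ 2 + 2 * v (φ r q) * (x * y) +
      w (φ r q) * y ^ 2) - a * (u (φ r q) * y ^ 2 + 2 * v (φ r q) * (y * -x) +
      w (φ r q) * (-x) ^ 2)) 0 := by
    refine Filter.Eventually.of_forall fun r => ?_
    simp only [hφ]
    rw [e1, e2]
    refine le_trans ?_ (hmax (φ r q))
    have g1 := quad_upper (u (φ r q)) (v (φ r q)) (w (φ r q)) x y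
    have g2 := quad_lower (u (φ r q)) (v (φ r q)) (w (φ r q)) y (-x)
    rw [hxy, mul_one] at g1
    rw [hyx, mul_one] at g2
    rw [← ee_apply] at g1
    rw [← aa_apply] at g2
    have g3 := mul_le_mul_of_nonneg_left g2 (by linarith : (0 : ℝ) ≤ a)
    linarith
  have hz := hloc.hasDerivAt_eq_zero hd
  simp only [hφ] at hz
  rw [e1, e2, hxy, hyx] at hz
  have k2' := kup q x y y (-x) hxy hyx
  have hs2 := Real.sq_sqrt (bb_nonneg (u q) (v q) (w q))
  refine no_maxA ha2 hν (ha q) hcon k2' ?_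
  have f1 : u q + w q = ee u v w q + aa u v w q := by rw [ee_apply, aa_apply]; ring
  have f2 : u q * w q - v q ^ 2 = ee u v w q * aa u v w q := by
    rw [ee_apply, aa_apply]
    have : ((u q + w q) / 2 + Real.sqrt (bb (u q) (v q) (w q))) *
        ((u q + w q) / 2 - Real.sqrt (bb (u q) (v q) (w q))) =
        ((u q + w q) / 2) ^ 2 - Real.sqrt (bb (u q) (v q) (w q)) ^ 2 := by ring
    rw [this, hs2, bb]
    ring
  rw [f1, f2] at hz
  linear_combination hz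

/-- **The maximum principle**, for forms. -/
theorem form_lt (h : RicC φ u v w k1 k2 k3) (hφ : ∀ p, φ 0 p = p) (hν : 0 < ν) (ha2 : 2 ≤ a)
    (hlo : ∀ p (x y : ℝ), ν * (x ^ 2 + y ^ 2) ≤ u p * x ^ 2 + 2 * v p * (x * y) + w p * y ^ 2)
    (kup : ∀ p (x y x' y' : ℝ), x ^ 2 + y ^ 2 = 1 → x' ^ 2 + y' ^ 2 = 1 →
      k1 p * x ^ 2 + 2 * k2 p * (x * y) + k3 p * y ^ 2 <
      a * (k1 p * x' ^ 2 + 2 * k2 p * (x' * y') + k3 p * y' ^ 2) + (4 - a) * ν ^ 2)
    (p : P) (x y x' y' : ℝ) (hx : x ^ 2 + y ^ 2 = 1) (hx' : x' ^ 2 + y' ^ 2 = 1) :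
    u p * x ^ 2 + 2 * v p * (x * y) + w p * y ^ 2 <
      a * (u p * x' ^ 2 + 2 * v p * (x' * y') + w p * y' ^ 2) - (a - 2) * ν := by
  have h1 := quad_upper (u p) (v p) (w p) x y
  have h2 := quad_lower (u p) (v p) (w p) x' y'
  have h3 := ee_lt_A h hφ hν ha2 hlo kup p
  rw [hx, mul_one] at h1
  rw [hx', mul_one] at h2
  rw [ee_apply, aa_apply] at h3
  have h4 := mul_le_mul_of_nonneg_left h2 (by linarith : (0 : ℝ) ≤ a)
  linarith

end Vale.Agent.P207.Q.H717
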