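import Mathlib.Tactic

/-!
# P207: relative pinching, the pointwise inequality for the multiplier

For `l = (3 t + 5 ν) / 10 - (9/5) q (t - ν) / t²`, `q = d²`, the expression
`X l + l t - (3/2) l² - (3/2) q` is positive. Both end points of the segment of admissible
curvatures are polynomials with nonnegative coefficients in suitable variables.
-/

namespace Vale.Agent.P207.Q.H717

/-- the numerator -/
noncomputable def nume (ν t d k δ : ℝ) : ℝ :=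
  (3 / 10 * t ^ 4 + 9 / 5 * d ^ 2 * (t - 2 * ν) * t) * (k - t ^ 2 / 2 - d ^ 2 / 2) -
    9 / 5 * (t - ν) * t ^ 2 * (2 * d * δ - 2 * t * d ^ 2) +
    ((3 * t ^ 2 + 5 * t * ν) / 10 * t ^ 4 - 9 / 5 * d ^ 2 * (t - ν) * t ^ 3) -
    3 / 2 * ((3 * t + 5 * ν) * t ^ 2 / 10 - 9 / 5 * d ^ 2 * (t - ν)) ^ 2 -
    3 / 2 * d ^ 2 * t ^ 4

theorem nume_a0 (d z x a : ℝ) : nume (d + z) (3 * d + 2 * z + x) d (2 * (d + z) ^ 2 + 2 * a) 0 =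
    1053 / 10 * d ^ 6 + 1917 / 5 * d ^ 5 * z + 1647 / 10 * d ^ 5 * x +
      107397 / 200 * d ^ 4 * z ^ 2 + 48159 / 100 * d ^ 4 * z * x + 19143 / 200 * d ^ 4 * x ^ 2 +
      297 / 5 * d ^ 4 * a + 10161 / 25 * d ^ 3 * z ^ 3 + 26361 / 50 * d ^ 3 * z ^ 2 * x +
      5256 / 25 * d ^ 3 * z * x ^ 2 + 684 / 5 * d ^ 3 * z * a + 1341 / 50 * d ^ 3 * x ^ 3 +
      396 / 5 * d ^ 3 * x * a + 4689 / 25 * d ^ 2 * z ^ 4 + 1503 / 5 * d ^ 2 * z ^ 3 * x +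
      17181 / 100 * d ^ 2 * z ^ 2 * x ^ 2 + 648 / 5 * d ^ 2 * z ^ 2 * a +
      2097 / 50 * d ^ 2 * z * x ^ 3 + 684 / 5 * d ^ 2 * z * x * a + 387 / 100 * d ^ 2 * x ^ 4 +
      36 * d ^ 2 * x ^ 2 * a + 1276 / 25 * d * z ^ 5 + 482 / 5 * d * z ^ 4 * x +
      353 / 5 * d * z ^ 3 * x ^ 2 + 288 / 5 * d * z ^ 3 * a + 251 / 10 * d * z ^ 2 * x ^ 3 +
      432 / 5 * d * z ^ 2 * x * a + 22 / 5 * d * z * x ^ 4 + 216 / 5 * d * z * x ^ 2 * a +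
      8 / 25 * d * x ^ 5 + 36 / 5 * d * x ^ 3 * a + 154 / 25 * z ^ 6 + 352 / 25 * z ^ 5 * x +
      13 * z ^ 4 * x ^ 2 + 48 / 5 * z ^ 4 * a + 31 / 5 * z ^ 3 * x ^ 3 + 96 / 5 * z ^ 3 * x * a +
      13 / 8 * z ^ 2 * x ^ 4 + 72 / 5 * z ^ 2 * x ^ 2 * a + 23 / 100 * z * x ^ 5 +
      24 / 5 * z * x ^ 3 * a + 3 / 200 * x ^ 6 + 3 / 5 * x ^ 4 * a := by
  unfold nume
  ring

theorem nume_a1 (d z x a : ℝ) : nume (d + z) (3 * d + 2 * z + x) d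
    (2 * (d + z) ^ 2 + 2 * a + (3 * (d + z) ^ 2 + a)) (3 * (d + z) ^ 2 + a) =
    108 / 5 * d ^ 5 * z + 567 / 10 * d ^ 5 * x + 21537 / 200 * d ^ 4 * z ^ 2 +
      18999 / 100 * d ^ 4 * z * x + 12663 / 200 * d ^ 4 * x ^ 2 + 243 / 10 * d ^ 4 * a +
      6381 / 25 * d ^ 3 * z ^ 3 + 15561 / 50 * d ^ 3 * z ^ 2 * x + 3906 / 25 * d ^ 3 * z * x ^ 2 +
      432 / 5 * d ^ 3 * z * a + 1341 / 50 * d ^ 3 * x ^ 3 + 216 / 5 * d ^ 3 * x * a +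
      6669 / 25 * d ^ 2 * z ^ 4 + 1701 / 5 * d ^ 2 * z ^ 3 * x +
      18261 / 100 * d ^ 2 * z ^ 2 * x ^ 2 + 612 / 5 * d ^ 2 * z ^ 2 * a +
      2457 / 50 * d ^ 2 * z * x ^ 3 + 558 / 5 * d ^ 2 * z * x * a + 477 / 100 * d ^ 2 * x ^ 4 +
      126 / 5 * d ^ 2 * x ^ 2 * a + 3076 / 25 * d * z ^ 5 + 986 / 5 * d * z ^ 4 * x +
      623 / 5 * d * z ^ 3 * x ^ 2 + 72 * d * z ^ 3 * a + 79 / 2 * d * z ^ 2 * x ^ 3 +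
      504 / 5 * d * z ^ 2 * x * a + 31 / 5 * d * z * x ^ 4 + 234 / 5 * d * z * x ^ 2 * a +
      8 / 25 * d * x ^ 5 + 36 / 5 * d * x ^ 3 * a + 514 / 25 * z ^ 6 + 1072 / 25 * z ^ 5 * x +
      173 / 5 * z ^ 4 * x ^ 2 + 72 / 5 * z ^ 4 * a + 67 / 5 * z ^ 3 * x ^ 3 +
      144 / 5 * z ^ 3 * x * a + 101 / 40 * z ^ 2 * x ^ 4 + 108 / 5 * z ^ 2 * x ^ 2 * a +
      23 / 100 * z * x ^ 5 + 36 / 5 * z * x ^ 3 * a + 3 / 200 * x ^ 6 + 9 / 10 * x ^ 4 * a := by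
  unfold nume
  ring

theorem nume_b0 (n y x a : ℝ) : nume n (3 * (n + y) + x) (n + y) (2 * n ^ 2 + 2 * a) 0 =
    1053 / 10 * n ^ 6 + 2889 / 5 * n ^ 5 * y + 1647 / 10 * n ^ 5 * x +
      253233 / 200 * n ^ 4 * y ^ 2 + 72477 / 100 * n ^ 4 * y * x + 19143 / 200 * n ^ 4 * x ^ 2 +
      297 / 5 * n ^ 4 * a + 70713 / 50 * n ^ 3 * y ^ 3 + 63009 / 50 * n ^ 3 * y ^ 2 * x +
      16677 / 50 * n ^ 3 * y * x ^ 2 + 1296 / 5 * n ^ 3 * y * a + 1341 / 50 * n ^ 3 * x ^ 3 +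
      396 / 5 * n ^ 3 * x * a + 84429 / 100 * n ^ 2 * y ^ 4 + 27153 / 25 * n ^ 2 * y ^ 3 * x +
      21969 / 50 * n ^ 2 * y ^ 2 * x ^ 2 + 2106 / 5 * n ^ 2 * y ^ 2 * a +
      1737 / 25 * n ^ 2 * y * x ^ 3 + 1224 / 5 * n ^ 2 * y * x * a + 387 / 100 * n ^ 2 * x ^ 4 +
      36 * n ^ 2 * x ^ 2 * a + 12663 / 50 * n * y ^ 5 + 11682 / 25 * n * y ^ 4 * x +
      261 * n * y ^ 3 * x ^ 2 + 1512 / 5 * n * y ^ 3 * a + 306 / 5 * n * y ^ 2 * x ^ 3 +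
      252 * n * y ^ 2 * x * a + 327 / 50 * n * y * x ^ 4 + 72 * n * y * x ^ 2 * a +
      8 / 25 * n * x ^ 5 + 36 / 5 * n * x ^ 3 * a + 5913 / 200 * y ^ 6 + 8127 / 100 * y ^ 5 * x +
      11889 / 200 * y ^ 4 * x ^ 2 + 81 * y ^ 4 * a + 927 / 50 * y ^ 3 * x ^ 3 +
      432 / 5 * y ^ 3 * x * a + 579 / 200 * y ^ 2 * x ^ 4 + 36 * y ^ 2 * x ^ 2 * a +
      27 / 100 * y * x ^ 5 + 36 / 5 * y * x ^ 3 * a + 3 / 200 * x ^ 6 + 3 / 5 * x ^ 4 * a := by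
  unfold nume
  ring

theorem nume_b1 (n y x a : ℝ) : nume n (3 * (n + y) + x) (n + y)
    (2 * n ^ 2 + 2 * a + (3 * n ^ 2 + a)) (3 * n ^ 2 + a) =
    459 / 5 * n ^ 5 * y + 567 / 10 * n ^ 5 * x + 87993 / 200 * n ^ 4 * y ^ 2 +
      34677 / 100 * n ^ 4 * y * x + 12663 / 200 * n ^ 4 * x ^ 2 + 243 / 10 * n ^ 4 * a +
      39933 / 50 * n ^ 3 * y ^ 3 + 41409 / 50 * n ^ 3 * y ^ 2 * x +
      12897 / 50 * n ^ 3 * y * x ^ 2 + 486 / 5 * n ^ 3 * y * a + 1341 / 50 * n ^ 3 * x ^ 3 +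
      216 / 5 * n ^ 3 * x * a + 67419 / 100 * n ^ 2 * y ^ 4 + 23103 / 25 * n ^ 2 * y ^ 3 * x +
      19809 / 50 * n ^ 2 * y ^ 2 * x ^ 2 + 729 / 5 * n ^ 2 * y ^ 2 * a +
      1737 / 25 * n ^ 2 * y * x ^ 3 + 594 / 5 * n ^ 2 * y * x * a + 477 / 100 * n ^ 2 * x ^ 4 +
      126 / 5 * n ^ 2 * x ^ 2 * a + 12663 / 50 * n * y ^ 5 + 11682 / 25 * n * y ^ 4 * x +
      261 * n * y ^ 3 * x ^ 2 + 486 / 5 * n * y ^ 3 * a + 306 / 5 * n * y ^ 2 * x ^ 3 +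
      108 * n * y ^ 2 * x * a + 327 / 50 * n * y * x ^ 4 + 234 / 5 * n * y * x ^ 2 * a +
      8 / 25 * n * x ^ 5 + 36 / 5 * n * x ^ 3 * a + 5913 / 200 * y ^ 6 + 8127 / 100 * y ^ 5 * x +
      11889 / 200 * y ^ 4 * x ^ 2 + 243 / 10 * y ^ 4 * a + 927 / 50 * y ^ 3 * x ^ 3 +
      162 / 5 * y ^ 3 * x * a + 579 / 200 * y ^ 2 * x ^ 4 + 108 / 5 * y ^ 2 * x ^ 2 * a +
      27 / 100 * y * x ^ 5 + 36 / 5 * y * x ^ 3 * a + 3 / 200 * x ^ 6 + 9 / 10 * x ^ 4 * a := by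
  unfold nume
  ring

/-- the numerator is affine in `δ` along `k = 2 k₂ + δ` -/
theorem nume_affine (ν t d k δ D : ℝ) : D * nume ν t d (k + δ) δ =
    (D - δ) * nume ν t d k 0 + δ * nume ν t d (k + D) D := by
  unfold nume
  ring

theorem nume_pos {ν t d k δ : ℝ} (hν : 0 < ν) (hd : 0 ≤ d) (h1 : d + 2 * ν ≤ t) (h2 : 3 * d < t)
    (hδ : 0 ≤ δ) (h3 : δ ≤ k - 2 * ν ^ 2) (h4 : 3 * δ ≤ k + 4 * ν ^ 2) :
    0 < nume ν t d k δ := by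
  set a : ℝ := (k - δ - 2 * ν ^ 2) / 2 with ha
  have ha0 : 0 ≤ a := by rw [ha]; linarith
  have hk : k = 2 * ν ^ 2 + 2 * a + δ := by rw [ha]; ring
  have hD : 0 < 3 * ν ^ 2 + a := by positivity
  have hδD : δ ≤ 3 * ν ^ 2 + a := by rw [ha]; linarith
  have key : 0 < nume ν t d (2 * ν ^ 2 + 2 * a) 0 ∧
      0 < nume ν t d (2 * ν ^ 2 + 2 * a + (3 * ν ^ 2 + a)) (3 * ν ^ 2 + a) := by
    rcases le_total d ν with hdν | hdν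
    · obtain ⟨z, hz, rfl⟩ : ∃ z, 0 ≤ z ∧ ν = d + z := ⟨ν - d, by linarith, by ring⟩
      obtain ⟨x, hx, rfl⟩ : ∃ x, 0 ≤ x ∧ t = 3 * d + 2 * z + x :=
        ⟨t - 3 * d - 2 * z, by linarith, by ring⟩
      rw [nume_a0, nume_a1]
      rcases hz.eq_or_lt with hz0 | hz0
      · have hx0 : 0 < x := by linarith
        constructor <;> positivity
      · constructor <;> positivity
    · obtain ⟨y, hy, rfl⟩ : ∃ y, 0 ≤ y ∧ d = ν + y := ⟨d - ν, by linarith, by ring⟩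
      obtain ⟨x, hx, rfl⟩ : ∃ x, 0 < x ∧ t = 3 * (ν + y) + x :=
        ⟨t - 3 * (ν + y), by linarith, by ring⟩
      rw [nume_b0, nume_b1]
      constructor <;> positivity
  have e := nume_affine ν t d (2 * ν ^ 2 + 2 * a) δ (3 * ν ^ 2 + a)
  rw [← hk] at e
  have h5 : 0 < (3 * ν ^ 2 + a) * nume ν t d k δ := by
    rw [e]
    rcases hδ.eq_or_lt with h0 | h0
    · rw [← h0]
      simp only [sub_zero, zero_mul, add_zero]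
      exact mul_pos hD key.1
    · have := mul_pos h0 key.2
      have := mul_nonneg (sub_nonneg.2 hδD) key.1.le
      linarith
  exact pos_of_mul_pos_right h5 hD.le

/-- **The pointwise inequality for the multiplier of relative pinching.** -/
theorem rp_ineq {ν t d k δ m : ℝ} (hν : 0 < ν) (hd : 0 ≤ d) (h1 : d + 2 * ν ≤ t) (h2 : 3 * d < t)
    (hδ : 0 ≤ δ) (h3 : δ ≤ k - 2 * ν ^ 2) (h4 : 3 * δ ≤ k + 4 * ν ^ 2) (hm : m ≤ 2 * d * δ) :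
    0 < (3 / 10 * (k - t ^ 2 / 2 - d ^ 2 / 2) - 9 / 5 * ((m - 2 * t * d ^ 2) *
        (t⁻¹ - ν * (t⁻¹ * t⁻¹)) + d ^ 2 * (-((t⁻¹) ^ 2 * (k - t ^ 2 / 2 - d ^ 2 / 2)) -
          ν * (2 * (t⁻¹ * (-((t⁻¹) ^ 2 * (k - t ^ 2 / 2 - d ^ 2 / 2)))))))) +
      (3 / 10 * t + 1 / 2 * ν - 9 / 5 * (d ^ 2 * (t⁻¹ - ν * (t⁻¹ * t⁻¹)))) * t -
      3 / 2 * (3 / 10 * t + 1 / 2 * ν - 9 / 5 * (d ^ 2 * (t⁻¹ - ν * (t⁻¹ * t⁻¹)))) ^ 2 -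
      3 / 2 * d ^ 2 := by
  have ht : 0 < t := by linarith
  have hN := nume_pos hν hd h1 h2 hδ h3 h4
  have e : (3 / 10 * (k - t ^ 2 / 2 - d ^ 2 / 2) - 9 / 5 * ((m - 2 * t * d ^ 2) *
        (t⁻¹ - ν * (t⁻¹ * t⁻¹)) + d ^ 2 * (-((t⁻¹) ^ 2 * (k - t ^ 2 / 2 - d ^ 2 / 2)) -
          ν * (2 * (t⁻¹ * (-((t⁻¹) ^ 2 * (k - t ^ 2 / 2 - d ^ 2 / 2)))))))) +
      (3 / 10 * t + 1 / 2 * ν - 9 / 5 * (d ^ 2 * (t⁻¹ - ν * (t⁻¹ * t⁻¹)))) * t -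
      3 / 2 * (3 / 10 * t + 1 / 2 * ν - 9 / 5 * (d ^ 2 * (t⁻¹ - ν * (t⁻¹ * t⁻¹)))) ^ 2 -
      3 / 2 * d ^ 2 = nume ν t d k δ / t ^ 4 +
      9 / 5 * ((t - ν) / t ^ 2) * (2 * d * δ - m) := by
    unfold nume
    field_simp
    ring
  rw [e]
  have h5 : 0 < nume ν t d k δ / t ^ 4 := by positivity
  have h6 : 0 ≤ 9 / 5 * ((t - ν) / t ^ 2) * (2 * d * δ - m) := by
    have h7 : 0 ≤ t - ν := by linarith
    have h8 : 0 ≤ 2 * d * δ - m := by linarith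
    positivity
  linarith

end Vale.Agent.P207.Q.H717
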