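import Vale.Agent.P207.Q.H717.UDataRP

/-!
# P207: the unstable solution is a `C¹` jet as soon as there is a positive multiplier

If `l > 0` is differentiable along the flow and `X l + l t - (3/2) l² - 6 |b|² > 0`, then
`(1/2) log l` is the logarithm of the density of a weight with which the Riccati iteration
converges in `C¹`.
-/

open MeasureTheory Filter Topology Set
open scoped Matrix.Norms.L2Operator RealInnerProductSpace

set_option linter.unusedSectionVars false

noncomputable section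

namespace Vale.Agent.P207.Q.H717

open Vale.Agent.P207.Q.H413 Vale.Agent.P207.Q.Trans Vale.Agent.P207.Q.Ric Vale.Agent.P207.Q.H183
open Vale.Agent.P207.Q.H892 (Curv)
open Vale.Agent.P207.Q.H791

section Weight

variable {P : Type} [TopologicalSpace P] [CompactSpace P] {φ : ℝ → P → P} {e : C(P, ℝ)}
  {l l' : C(P, ℝ)} {Λ : ℝ}

/-- the weight `√l exp ∫_r^0 e` -/
def Wl (φ : ℝ → P → P) (l e : C(P, ℝ)) (p : P) (r : ℝ) : ℝ :=
  Real.exp (1 / 2 * Real.log (l (φ r p)) + ∫ τ in r..0, e (φ τ p))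

theorem Wl_pos (p : P) (r : ℝ) : 0 < Wl φ l e p r := Real.exp_pos _

theorem Wl_deriv (hφ : Continuous fun z : ℝ × P => φ z.1 z.2) (hl : ∀ p, 0 < l p)
    (hd : ∀ p r, HasDerivAt (fun r => l (φ r p)) (l' (φ r p)) r) (p : P) (r : ℝ) :
    HasDerivAt (Wl φ l e p)
      ((1 / 2 * (l' (φ r p) / l (φ r p)) - e (φ r p)) * Wl φ l e p r) r := by
  have hc : Continuous fun τ : ℝ => e (φ τ p) :=
    e.continuous.comp (hφ.comp (continuous_id.prodMk continuous_const))
  have h1 : HasDerivAt (fun r => ∫ τ in r..0, e (φ τ p)) (- e (φ r p)) r :=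
    intervalIntegral.integral_hasDerivAt_left (hc.intervalIntegrable _ _)
      (hc.stronglyMeasurableAtFilter _ _) hc.continuousAt
  have h2 := ((hd p r).log (hl _).ne').const_mul (1 / 2)
  refine ((h2.fun_add h1).exp).congr_deriv ?_
  unfold Wl
  ring

theorem Wl_lim (hφ : Continuous fun z : ℝ × P => φ z.1 z.2)
    (hΛ : 0 < Λ) (he : ∀ p, e p ≤ Λ) {b : ℝ} (hb : ∀ p, 1 / 2 * Real.log (l p) ≤ b) (p : P) :
    Tendsto (fun r => Real.exp (2 * Λ * r) * Wl φ l e p r) atBot (𝓝 0) := by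
  have hlim : Tendsto (fun r : ℝ => Real.exp (b + Λ * r)) atBot (𝓝 0) := by
    refine Real.tendsto_exp_atBot.comp ?_
    exact tendsto_atBot_add_const_left _ _ (tendsto_id.const_mul_atBot hΛ)
  refine squeeze_zero' (Eventually.of_forall fun r =>
    (mul_pos (Real.exp_pos _) (Wl_pos p r)).le) ?_ hlim
  filter_upwards [eventually_le_atBot (0 : ℝ)] with r hr
  have hc : Continuous fun τ : ℝ => e (φ τ p) :=
    e.continuous.comp (hφ.comp (continuous_id.prodMk continuous_const))
  have h1 : ∫ τ in r..0, e (φ τ p) ≤ ∫ τ in r..0, Λ :=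
    intervalIntegral.integral_mono_on hr (hc.intervalIntegrable _ _) intervalIntegrable_const
      fun τ _ => he _
  rw [intervalIntegral.integral_const, smul_eq_mul] at h1
  unfold Wl
  rw [← Real.exp_add]
  refine Real.exp_le_exp.2 ?_
  have := hb (φ r p)
  linarith

/-- the multiplier inequality gives the weight inequality -/
theorem weight_of_mult {t B l l' δ : ℝ} (hl : 0 < l) (hB : 0 ≤ B)
    (hδ : δ ≤ (l' + l * t - 3 / 2 * l ^ 2 - 6 * B) / (2 * l)) :
    δ ≤ 1 / 2 * (l' / l) - (t / 2 + Real.sqrt B) + 2 * (t / 2 - Real.sqrt B) := by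
  have h1 : Real.sqrt B ^ 2 = B := Real.sq_sqrt hB
  obtain ⟨s, hs⟩ : ∃ s, s = Real.sqrt B := ⟨_, rfl⟩
  rw [← hs] at h1 ⊢
  rw [← h1] at hδ
  have h2 : 1 / 2 * (l' / l) - (t / 2 + s) + 2 * (t / 2 - s) =
      (l' + l * t - 3 / 2 * l ^ 2 - 6 * s ^ 2) / (2 * l) + 3 / 4 * (l - 2 * s) ^ 2 / l := by
    field_simp
    ring
  rw [h2]
  have : 0 ≤ 3 / 4 * (l - 2 * s) ^ 2 / l := by positivity
  linarith

end Weight

variable {P : Type} [TopologicalSpace P] [CompactSpace P] [MeasurableSpace P] [BorelSpace P]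
  {m : Measure P} [IsFiniteMeasure m] {c : Cal (intL m)} {ψ : Idx → ℝ → P → P}
  [FirstCountableTopology P]

/-- **The unstable solution is a `C¹` jet as soon as there is a positive multiplier.** -/
theorem exists_UDataL (C : Curv c) (T : TF c ψ) {lam Λ : ℝ} (hlam : 0 < lam) (hle : lam ≤ Λ)
    (lower : ∀ p (x y : ℝ), lam ^ 2 * (x ^ 2 + y ^ 2) ≤
      C.K 0 0 p * x ^ 2 + 2 * C.K 0 1 p * (x * y) + C.K 1 1 p * y ^ 2)
    (upper : ∀ p (x y : ℝ), C.K 0 0 p * x ^ 2 + 2 * C.K 0 1 p * (x * y) + C.K 1 1 p * y ^ 2 ≤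
      Λ ^ 2 * (x ^ 2 + y ^ 2))
    (hL : ∀ u v w : C(P, ℝ), RicC (ψ .X) u v w (C.K 0 0) (C.K 0 1) (C.K 1 1) →
      (∀ p (x y : ℝ), lam * (x ^ 2 + y ^ 2) ≤
        u p * x ^ 2 + 2 * v p * (x * y) + w p * y ^ 2) →
      ∃ l l' : C(P, ℝ), (∀ p, 0 < l p) ∧
        (∀ p r, HasDerivAt (fun r => l (ψ .X r p)) (l' (ψ .X r p)) r) ∧
        ∀ p, 0 < l' p + l p * (u p + w p) - 3 / 2 * l p ^ 2 - 6 * bb (u p) (v p) (w p)) :
    ∃ D : UData c C,
      (∀ p (x y : ℝ), lam * (x ^ 2 + y ^ 2) ≤
        D.U 0 0 p * x ^ 2 + 2 * D.U 0 1 p * (x * y) + D.U 1 1 p * y ^ 2) ∧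
      (∀ p (x y : ℝ), D.U 0 0 p * x ^ 2 + 2 * D.U 0 1 p * (x * y) + D.U 1 1 p * y ^ 2 ≤
        Λ * (x ^ 2 + y ^ 2)) ∧
      (∀ i j p r, HasDerivAt (fun r => D.U i j (ψ .X r p))
        (C.K i j (ψ .X r p) - ∑ k, D.U i k (ψ .X r p) * D.U k j (ψ .X r p)) r) := by
  have hΛ : 0 < Λ := hlam.trans_le hle
  obtain ⟨B, hK⟩ := exists_KBase C T hlam hle lower upper
  set U := U0 hK with hU
  set u := U 0 0 with hu
  set v := U 0 1 with hv
  set w := U 1 1 with hw
  have hs : U 1 0 = v := U0_symm hK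
  have hflow : ∀ i j p r, HasDerivAt (fun r => U i j (ψ .X r p))
      (C.K i j (ψ .X r p) - ∑ k, U i k (ψ .X r p) * U k j (ψ .X r p)) r := by
    intro i j p r
    have := U0_deriv hK i j p r
    rw [coe_KS] at this
    exact this
  have hR : RicC (ψ .X) u v w (C.K 0 0) (C.K 0 1) (C.K 1 1) := by
    refine ⟨fun p r => ?_, fun p r => ?_, fun p r => ?_⟩
    · have := hflow 0 0 p r
      rwa [Fin.sum_univ_two, hs] at this
    · have := hflow 0 1 p r
      rwa [Fin.sum_univ_two] at this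
    · have := hflow 1 1 p r
      rwa [Fin.sum_univ_two, hs] at this
  have hlo : ∀ p (x y : ℝ), lam * (x ^ 2 + y ^ 2) ≤
      u p * x ^ 2 + 2 * v p * (x * y) + w p * y ^ 2 := U0_lower hK
  have hup : ∀ p (x y : ℝ), u p * x ^ 2 + 2 * v p * (x * y) + w p * y ^ 2 ≤
      Λ * (x ^ 2 + y ^ 2) := U0_upper hK
  obtain ⟨l, l', hl, hd, hm⟩ := hL u v w hR hlo
  have heΛ : ∀ p, ee u v w p ≤ Λ := fun p => by
    have := sqrt_le_of_upper (hup p)
    rw [ee_apply]; linarith
  have haΛ : ∀ p, aa u v w p ≤ Λ := fun p => by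
    have h1 := sqrt_le_of_upper (hup p)
    have h2 := Real.sqrt_nonneg (bb (u p) (v p) (w p))
    rw [aa_apply]; linarith
  have ha0 : ∀ p, 0 ≤ aa u v w p := fun p => by
    have := sqrt_le_of_lower (hlo p)
    rw [aa_apply]; linarith
  -- the gap
  have hcF : Continuous fun p => (l' p + l p * (u p + w p) - 3 / 2 * l p ^ 2 -
      6 * bb (u p) (v p) (w p)) / (2 * l p) := by
    refine Continuous.div ?_ (by fun_prop) fun p => by have := hl p; positivity
    unfold bb; fun_prop
  obtain ⟨δ, hδ, hgap⟩ : ∃ δ, 0 < δ ∧ ∀ p, δ ≤ (l' p + l p * (u p + w p) - 3 / 2 * l p ^ 2 -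
      6 * bb (u p) (v p) (w p)) / (2 * l p) := by
    rcases isEmpty_or_nonempty P with hE | hE
    · exact ⟨1, one_pos, fun p => (hE.false p).elim⟩
    · obtain ⟨q, -, hq⟩ := isCompact_univ.exists_isMinOn (s := (univ : Set P)) univ_nonempty
        hcF.continuousOn
      exact ⟨_, div_pos (hm q) (by have := hl q; positivity), fun p => hq (mem_univ p)⟩
  -- the growth
  have hgr := fun f : c.S => exists_growthW T (K := C.K) (U := U)
    (ρ := fun i => if i = 0 then (C.E02 : C(P, ℝ)) else - (C.E01 : C(P, ℝ)))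
    (RX_comm c) (HX_comm C) rfl hflow hs hlam (e := ee u v w) hlo
    (fun p x y => quad_upper (u p) (v p) (w p) x y) f
  choose G hG0 hG using hgr
  set G1 : ℝ := ∑ i : Fin 2, ∑ j : Fin 2, G (KS C i j) with hG1
  have hG10 : 0 ≤ G1 := Finset.sum_nonneg fun i _ => Finset.sum_nonneg fun j _ => hG0 _
  have hG2 : ∀ i j, G (KS C i j) ≤ G1 := by
    intro i j
    exact (Finset.single_le_sum (f := fun j => G (KS C i j)) (fun j _ => hG0 _)
            (Finset.mem_univ j)).trans
      (Finset.single_le_sum (f := fun i => ∑ j : Fin 2, G (KS C i j))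
            (fun i _ => Finset.sum_nonneg fun j _ => hG0 _) (Finset.mem_univ i))
  obtain ⟨b, hb0, hb'⟩ := exists_norm_le
  -- bounds of the density
  have hcl : Continuous fun p => 1 / 2 * Real.log (l p) :=
    continuous_const.mul (Continuous.log l.continuous fun p => (hl p).ne')
  obtain ⟨bm, hbm⟩ : ∃ bm, ∀ p, bm ≤ 1 / 2 * Real.log (l p) := by
    rcases isEmpty_or_nonempty P with hE | hE
    · exact ⟨0, fun p => (hE.false p).elim⟩
    · obtain ⟨q, -, hq⟩ := isCompact_univ.exists_isMinOn (s := (univ : Set P)) univ_nonempty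
        hcl.continuousOn
      exact ⟨_, fun p => hq (mem_univ p)⟩
  obtain ⟨bM, hbM⟩ : ∃ bM, ∀ p, 1 / 2 * Real.log (l p) ≤ bM := by
    rcases isEmpty_or_nonempty P with hE | hE
    · exact ⟨0, fun p => (hE.false p).elim⟩
    · obtain ⟨q, -, hq⟩ := isCompact_univ.exists_isMaxOn (s := (univ : Set P)) univ_nonempty
        hcl.continuousOn
      exact ⟨_, fun p => hq (mem_univ p)⟩
  set C₁ : ℝ := b * G1 * Real.exp (-bm) with hC₁
  have hC₁0 : 0 ≤ C₁ := by positivity
  have hW : ∀ k, HypW lam Λ δ C₁ (NK (flowOf T) (KS C) Λ) (MK (flowOf T) (KS C) k)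
      (fun p r => aa u v w (ψ .X r p)) (Wl (ψ .X) l (ee u v w))
      (fun p r => (1 / 2 * (l' (ψ .X r p) / l (ψ .X r p)) - ee u v w (ψ .X r p)) *
        Wl (ψ .X) l (ee u v w) p r) := by
    intro k
    refine { δ0 := hδ
             Wpos := fun p r => Wl_pos p r
             deriv := fun p r => Wl_deriv (T.cont .X) hl hd p r
             ineq := fun p r _ => ?_
             lim := fun p => Wl_lim (T.cont .X) hΛ heΛ hbM p
             a0 := fun p r => ha0 _
             aT := fun p r => ?_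
             M := fun p r hr => ?_ }
    · set q := ψ .X r p with hq
      have h1 := weight_of_mult (t := u q + w q) (hl q) (bb_nonneg (u q) (v q) (w q)) (hgap q)
      rw [← ee_apply, ← aa_apply] at h1
      have h2 := mul_le_mul_of_nonneg_right h1 (Wl_pos (φ := ψ .X) (l := l) (e := ee u v w) p r).le
      linarith
    · -- the norm of `T`
      set q := ψ .X r p with hq
      have e : ∀ i j, Ric.T Λ (NK (flowOf T) (KS C) Λ) p r i j =
          (if i = j then Λ else 0) - U i j q := fun i j => by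
        have := U0_flow hK i j p r
        have h2 : (flowOf T).φ r p = q := rfl
        rw [h2] at this
        rw [hU, this]; ring
      have hqf : ∀ x y, qf x y (Ric.T Λ (NK (flowOf T) (KS C) Λ) p r) = Λ * (x ^ 2 + y ^ 2) -
          (u q * x ^ 2 + 2 * v q * (x * y) + w q * y ^ 2) := by
        intro x y
        rw [qf, e, e, e, e, hs, ← hu, ← hv, ← hw]
        simp
        ring
      refine norm_M2_le ?_ (by linarith [haΛ q]) fun x y => ?_
      · rw [e, e, hs, ← hv]; simp
      · rw [hqf, abs_of_nonneg (by linarith [hup q x y])]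
        have := quad_lower (u q) (v q) (w q) x y
        rw [aa_apply]
        nlinarith
    · -- the bound of `M`
      have hE := Real.exp_pos (∫ τ in r..0, ee u v w (ψ .X τ p))
      have h1 : ‖MK (flowOf T) (KS C) k p r‖ ≤
          b * (G1 * Real.exp (∫ τ in r..0, ee u v w (ψ .X τ p))) := by
        refine hb' _ _ (mul_nonneg hG10 hE.le) fun i j => ?_
        rw [MK_apply, abs_neg]
        exact (hG (KS C i j) k p r hr).trans (mul_le_mul_of_nonneg_right (hG2 i j) hE.le)
      refine h1.trans ?_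
      have h2 : Real.exp (∫ τ in r..0, ee u v w (ψ .X τ p)) ≤
          Real.exp (-bm) * Wl (ψ .X) l (ee u v w) p r := by
        unfold Wl
        rw [← Real.exp_add]
        refine Real.exp_le_exp.2 ?_
        linarith [hbm (ψ .X r p)]
      calc b * (G1 * Real.exp (∫ τ in r..0, ee u v w (ψ .X τ p)))
          ≤ b * (G1 * (Real.exp (-bm) * Wl (ψ .X) l (ee u v w) p r)) := by gcongr
        _ = _ := by rw [hC₁]; ring
  have hw0 : ∀ p, Wl (ψ .X) l (ee u v w) p 0 ≤ Real.exp bM := by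
    intro p
    unfold Wl
    rw [intervalIntegral.integral_same, add_zero]
    exact Real.exp_le_exp.2 (hbM _)
  obtain ⟨D, hD⟩ := exists_USolW hK hC₁0 hW hw0
  refine ⟨{ U := D.U, dU := D.dU, jU := D.jU, symU := D.symU, symd := D.symd,
            ric := fun i j => by rw [D.ric, coe_KS], R00 := D.R00, R01 := D.R01,
            R11 := D.R11 }, D.lower, D.upper, fun i j p r => ?_⟩
  have := D.flow i j p r
  rw [coe_KS] at this
  exact this

/-- the components of the Riccati equation from the matrix form -/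
theorem ricC_of_UData {C : Curv c} {φ : ℝ → P → P} (D : UData c C)
    (hric : ∀ i j p r, HasDerivAt (fun r => D.U i j (φ r p))
        (C.K i j (φ r p) - ∑ k, D.U i k (φ r p) * D.U k j (φ r p)) r) :
    RicC φ (D.U 0 0) (D.U 0 1) (D.U 1 1) (C.K 0 0) (C.K 0 1) (C.K 1 1) := by
  have hs : D.U 1 0 = D.U 0 1 := D.symU
  refine ⟨fun p r => ?_, fun p r => ?_, fun p r => ?_⟩
  · have := hric 0 0 p r
    rwa [Fin.sum_univ_two, hs] at this
  · have := hric 0 1 p r
    rwa [Fin.sum_univ_two] at this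
  · have := hric 1 1 p r
    rwa [Fin.sum_univ_two, hs] at this

end Vale.Agent.P207.Q.H717
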